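import Vale.Agent.P129.H448.Branches
import Vale.Agent.P129.H223.Adapter
import Vale.Agent.P129.H3.Prod
import Vale.Agent.P129.H3.Final

/-! From a family of infinite special sequences which kills all block sequences to a Banach space
of density at most `ℵ₁` without separable infinite-dimensional quotients. -/

open Finset Filter Topology Cardinal

namespace Vale.Agent.P129.H448

/-! ### The index set -/

theorem exists_gt_of_countable (s : Set W) (hs : s.Countable) : ∃ a : W, ∀ b ∈ s, b < a := by
  by_contra hcon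
  push Not at hcon
  have h1 : (Set.univ : Set W) ⊆ ⋃ b ∈ s, Set.Iic b := by
    intro a _
    obtain ⟨b, hb, hab⟩ := hcon a
    exact Set.mem_biUnion hb hab
  have h2 : (⋃ b ∈ s, Set.Iic b : Set W).Countable := by
    refine hs.biUnion fun b _ => ?_
    rw [← Set.Iio_insert]
    exact (countable_Iio b).insert b
  have h3 : (Set.univ : Set W).Countable := h2.mono h1
  rw [← Cardinal.le_aleph0_iff_set_countable, Cardinal.mk_univ, mk_W] at h3
  exact absurd h3 (not_le.2 Cardinal.aleph0_lt_aleph_one)

instance : NoMaxOrder W := ⟨fun a => by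
  obtain ⟨b, hb⟩ := exists_gt_of_countable {a} (Set.countable_singleton a)
  exact ⟨b, hb a rfl⟩⟩

/-! ### The kill property -/

theorem inc_injective : Function.Injective inc := by
  intro x y h
  have h1 : nrm (x - y) = 0 := by rw [← norm_inc, map_sub, h, sub_self, norm_zero]
  exact sub_eq_zero.1 (nrm_eq_zero_iff.1 h1)

theorem exists_inc {v : V} (hv : v ∈ (Submodule.span ℝ (Set.range frame.e) : Set V)) :
    ∃ x : Vec, inc x = v := by
  have h1 : Submodule.span ℝ (Set.range frame.e) ≤ LinearMap.range inc := by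
    rw [Submodule.span_le]
    rintro _ ⟨a, rfl⟩
    exact ⟨Finsupp.single a 1, rfl⟩
  exact h1 hv

theorem frame_P_inc (a : W) (x : Vec) : frame.P a (inc x) = inc (res (Set.Iio a) x) :=
  Pr_inc Set.ordConnected_Iio x

theorem kills_system {𝓕 : Family} {C : ℝ} (h𝓕 : 𝓕.KillsAll C) :
    H223.Kills frame 𝓕.system exists_gt_of_countable := by
  classical
  intro l hl α h hb hfin m
  choose x hx using fun k => exists_inc (hfin k)
  have hlow : ∀ k, ∀ a ∈ (x k).support, α k ≤ a := by
    intro k a ha
    have h1 : frame.P (α k) (h k) = 0 := hb.low k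
    rw [← hx, frame_P_inc, ← map_zero inc] at h1
    have h2 := inc_injective h1
    by_contra h3
    have h4 : res (Set.Iio (α k)) (x k) a = x k a := by
      rw [res_apply, if_pos (Set.mem_Iio.2 (not_le.1 h3))]
    rw [h2] at h4
    exact (Finsupp.mem_support_iff.1 ha) h4.symm
  have hhigh : ∀ k, ∀ a ∈ (x k).support, a < α (k + 1) := by
    intro k a ha
    have h1 : frame.P (α (k + 1)) (h k) = h k := hb.high k
    rw [← hx, frame_P_inc] at h1
    have h2 := inc_injective h1
    by_contra h3
    have h4 : res (Set.Iio (α (k + 1))) (x k) a = 0 := by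
      rw [res_apply, if_neg (fun h5 => h3 (Set.mem_Iio.1 h5))]
    rw [h2] at h4
    exact (Finsupp.mem_support_iff.1 ha) h4
  have hblock : IsBlock l x := by
    refine ⟨fun k hk => ?_, fun j k hjk a ha b hb' => ?_, fun k a ha => ?_, fun a ha => ?_⟩
    · have h1 := hb.one_le k
      rw [← hx, hk, map_zero, norm_zero] at h1
      exact absurd h1 (by norm_num)
    · exact (hhigh j a ha).trans_le ((hb.mono.monotone hjk).trans (hlow k b hb'))
    · exact (hhigh k a ha).trans (hb.lt (k + 1))
    · obtain ⟨k, hk⟩ := hb.cofinal a ha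
      refine ⟨k + 1, fun b hb' => ?_⟩
      exact hk.trans_lt ((hb.mono (Nat.lt_succ_self k)).trans_le (hlow (k + 1) b hb'))
  obtain ⟨μ, hμ, hlμ, Φ, hΦ, hcof, u, hu⟩ := h𝓕 l x hblock m
  refine ⟨μ, hμ, hlμ, ?_, C, fun i => inc (u i), fun i => ?_, fun i => ?_, fun i => ?_⟩
  · intro k a ha
    rw [show 𝓕.system.br μ = 𝓕.br μ from rfl, 𝓕.br_some hΦ] at ha
    exact hcof.1 k a ha
  · have h1 := (hu i).1
    have h2 : inc (u i) ∈ (Submodule.span ℝ (x '' {k | i ≤ k})).map inc :=
      Submodule.mem_map_of_mem h1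
    rw [Submodule.map_span, Set.image_image] at h2
    have h3 : (fun k => inc (x k)) = h := funext hx
    rw [h3] at h2
    exact h2
  · rw [norm_inc]
    exact (hu i).2.1
  · rw [show 𝓕.system.br μ = 𝓕.br μ from rfl, 𝓕.br_some hΦ]
    have h1 : (𝓕.inf μ Φ hΦ).branch.lim (inc (u i)) = pr (br Φ) (u i) :=
      (𝓕.inf μ Φ hΦ).fnl_tl_inc 0 (u i)
    rw [h1, (hu i).2.2]

/-! ### The space -/

theorem y_mem {𝓑 : H168.BranchSystem frame} (G : H168.Generators 𝓑) (μ : W) : G.y μ ∈ G.X :=
  Submodule.le_topologicalClosure _ (Submodule.subset_span ⟨μ, rfl⟩)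

theorem linearIndependent_y {𝓑 : H168.BranchSystem frame} (G : H168.Generators 𝓑) :
    LinearIndependent ℝ G.y := by
  classical
  rw [linearIndependent_iff']
  intro s c hsum
  by_contra hcon
  push Not at hcon
  obtain ⟨μ, hμ, hc⟩ := hcon
  set t := s.filter fun μ => c μ ≠ 0 with ht
  have hne : t.Nonempty := ⟨μ, by simp [ht, hμ, hc]⟩
  set ν := t.max' hne with hν
  have hνt : ν ∈ t := t.max'_mem hne
  have h1 : (∑ i ∈ s, c i • G.y i) (frame.e ν) = c ν := by
    rw [_root_.sum_apply, Finset.sum_eq_single ν]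
    · rw [smul_apply, G.y_self, smul_eq_mul, mul_one]
    · intro i hi hne'
      rw [smul_apply, smul_eq_mul]
      by_cases hci : c i = 0
      · rw [hci, zero_mul]
      · have h2 : i ∈ t := by simp [ht, hi, hci]
        have h3 : i < ν := lt_of_le_of_ne (t.le_max' i h2) hne'
        rw [G.y_lt i ν h3, mul_zero]
    · intro h
      exact absurd (Finset.mem_filter.1 hνt).1 h
  rw [hsum] at h1
  exact (Finset.mem_filter.1 hνt).2 h1.symm

theorem not_finite_X {𝓑 : H168.BranchSystem frame} (G : H168.Generators 𝓑) :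
    ¬ FiniteDimensional ℝ G.X := by
  intro hfin
  have h1 : LinearIndependent ℝ (fun μ : W => (⟨G.y μ, y_mem G μ⟩ : G.X)) := by
    refine LinearIndependent.of_comp G.X.subtype ?_
    exact linearIndependent_y G
  have h2 : Finite W := h1.finite
  have h3 := Cardinal.lt_aleph0_of_finite W
  rw [mk_W] at h3
  exact absurd h3 (not_lt.2 (Cardinal.aleph0_le_aleph 1))

/-- the space `X` as a type -/
def XT {𝓑 : H168.BranchSystem frame} (G : H168.Generators 𝓑) : Type := G.X

noncomputable instance {𝓑 : H168.BranchSystem frame} (G : H168.Generators 𝓑) :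
    NormedAddCommGroup (XT G) := inferInstanceAs (NormedAddCommGroup G.X)

noncomputable instance {𝓑 : H168.BranchSystem frame} (G : H168.Generators 𝓑) :
    NormedSpace ℝ (XT G) := inferInstanceAs (NormedSpace ℝ G.X)

/-- the inclusion of `X` -/
noncomputable def incX {𝓑 : H168.BranchSystem frame} (G : H168.Generators 𝓑) :
    XT G →ₗ[ℝ] StrongDual ℝ V := G.X.subtype

theorem norm_incX {𝓑 : H168.BranchSystem frame} (G : H168.Generators 𝓑) (x : XT G) :
    ‖incX G x‖ = ‖x‖ := rfl

theorem incX_mem {𝓑 : H168.BranchSystem frame} (G : H168.Generators 𝓑) (x : XT G) :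
    incX G x ∈ G.X := x.2

theorem exists_incX {𝓑 : H168.BranchSystem frame} (G : H168.Generators 𝓑)
    {z : StrongDual ℝ V} (hz : z ∈ G.X) : ∃ x : XT G, incX G x = z := ⟨⟨z, hz⟩, rfl⟩

theorem mem_X_iff {𝓑 : H168.BranchSystem frame} (G : H168.Generators 𝓑) (z : StrongDual ℝ V) :
    z ∈ G.X ↔ z ∈ closure (Submodule.span ℝ (Set.range G.y) : Set (StrongDual ℝ V)) := Iff.rfl

theorem isClosed_X {𝓑 : H168.BranchSystem frame} (G : H168.Generators 𝓑) :
    IsClosed (G.X : Set (StrongDual ℝ V)) := isClosed_closure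

theorem completeSpace_XT {𝓑 : H168.BranchSystem frame} (G : H168.Generators 𝓑) :
    CompleteSpace (XT G) := by
  refine Metric.complete_of_cauchySeq_tendsto fun u hu => ?_
  have h1 : CauchySeq fun n => incX G (u n) := by
    rw [Metric.cauchySeq_iff'] at hu ⊢
    intro ε hε
    obtain ⟨N, hN⟩ := hu ε hε
    refine ⟨N, fun n hn => ?_⟩
    have := hN n hn
    rw [dist_eq_norm] at this ⊢
    rwa [← map_sub, norm_incX]
  obtain ⟨z, hz⟩ := cauchySeq_tendsto_of_complete h1
  have h2 : z ∈ G.X := (isClosed_X G).mem_of_tendsto hz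
    (Filter.Eventually.of_forall fun n => incX_mem G (u n))
  obtain ⟨x, rfl⟩ := exists_incX G h2
  refine ⟨x, ?_⟩
  rw [tendsto_iff_norm_sub_tendsto_zero] at hz ⊢
  refine hz.congr fun n => ?_
  rw [← map_sub, norm_incX]

/-- the generators in `XT G` -/
noncomputable def yX {𝓑 : H168.BranchSystem frame} (G : H168.Generators 𝓑) (μ : W) : XT G :=
  (⟨G.y μ, y_mem G μ⟩ : G.X)

theorem incX_yX {𝓑 : H168.BranchSystem frame} (G : H168.Generators 𝓑) (μ : W) :
    incX G (yX G μ) = G.y μ := rfl

theorem dense_span_y {𝓑 : H168.BranchSystem frame} (G : H168.Generators 𝓑) :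
    Dense (Submodule.span ℝ (Set.range (yX G)) : Set (XT G)) := by
  intro x
  rw [Metric.mem_closure_iff]
  intro ε hε
  have h1 := (mem_X_iff G _).1 (incX_mem G x)
  obtain ⟨z, hz, hd⟩ := Metric.mem_closure_iff.1 h1 ε hε
  have h2 : Submodule.span ℝ (Set.range G.y) =
      (Submodule.span ℝ (Set.range (yX G))).map (incX G) := by
    rw [Submodule.map_span, ← Set.range_comp]
    rfl
  rw [SetLike.mem_coe, h2] at hz
  obtain ⟨x', hx', rfl⟩ := hz
  refine ⟨x', hx', ?_⟩
  rw [dist_eq_norm] at hd ⊢
  rwa [← map_sub, norm_incX] at hd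

theorem dens_X_le {𝓑 : H168.BranchSystem frame} (G : H168.Generators 𝓑) :
    H189.dens (XT G) ≤ ℵ_ 1 := by
  refine (H189.dens_le_of_dense_span _ (dense_span_y G)).trans (max_le ?_
    (Cardinal.aleph0_le_aleph 1))
  exact Cardinal.mk_range_le.trans mk_W.le

theorem not_finite_XT {𝓑 : H168.BranchSystem frame} (G : H168.Generators 𝓑) :
    ¬ FiniteDimensional ℝ (XT G) := not_finite_X G

/-- **The counterexample** from a family of infinite special sequences which kills all block
sequences. -/
theorem realCounterexample_of_family {𝓕 : Family} {C : ℝ} (h𝓕 : 𝓕.KillsAll C) :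
    H3.RealCounterexample := by
  obtain ⟨G, hG⟩ := H223.exists_generators frame 𝓕.system
  have h1 := H3.no_quotient_prod (H223.projSystem frame exists_gt_of_countable) countable_Iio
    (Submodule.span ℝ (Set.range frame.e))
    (fun a b hab w hwa hwb ε hε => H223.frame_dense_interval frame a b hab w hwa hwb ε hε) G.X
    (H223.hdual_of_lin G.X fun f C hf => H168.dualIsV frame 𝓕.system G f C hf)
    (H223.supply_of_kills (kills_system h𝓕) G hG)
  exact ⟨XT G, inferInstance, inferInstance, completeSpace_XT G, dens_X_le G, not_finite_XT G,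
    h1.1, h1.2⟩

end Vale.Agent.P129.H448
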