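import Vale.Agent.P129.H630.B2

/-! The facts on the norm used for the space `V` (collected from `H630`). -/

open Finset

namespace Vale.Agent.P129.H448

theorem nrm_nonneg (x : Vec) : 0 ≤ nrm x := B.nrm_nonneg x
theorem nrm_add_le (x y : Vec) : nrm (x + y) ≤ nrm x + nrm y := B.nrm_add_le x y
theorem nrm_smul (c : ℝ) (x : Vec) : nrm (c • x) = |c| * nrm x := B.nrm_smul c x
theorem nrm_eq_zero_iff {x : Vec} : nrm x = 0 ↔ x = 0 := B.nrm_eq_zero_iff x
theorem nrm_res_le {I : Set W} (hI : I.OrdConnected) (x : Vec) : nrm (res I x) ≤ nrm x :=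
  B.nrm_res_le hI x
theorem abs_ap_le_nrm {φ : Fn} (h : φ ∈ K) (x : Vec) : |ap φ x| ≤ nrm x := B.abs_ap_le h x
theorem exists_ap {c : ℝ} {x : Vec} (h : c < nrm x) :
    ∃ φ ∈ K, (φ.support : Set W) ⊆ ran x.support ∧ c < ap φ x := by
  obtain ⟨φ, h1, h2, h3⟩ := B.exists_ap h
  exact ⟨φ, h1, fun a ha => h2 a ha, h3⟩
theorem abs_apply_le_one {φ : Fn} (h : φ ∈ K) (a : W) : |φ a| ≤ 1 := B.abs_apply_le_one h a
theorem nrm_single (a : W) : nrm (Finsupp.single a 1) = 1 := by rw [B.nrm_single, abs_one]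
theorem abs_apply_le_nrm (x : Vec) (a : W) : |x a| ≤ nrm x := B.abs_apply_le_nrm x a

theorem sum_nrm_res_le {n : ℕ} (I : ℕ → Set W) (hI : ∀ i < n, (I i).OrdConnected)
    (hlt : ∀ i j, i < j → j < n → ILt (I i) (I j)) (x : Vec) :
    ∑ i ∈ range n, nrm (res (I i) x) ≤ m n * nrm x := by
  rcases Nat.lt_or_ge n 2 with hn | hn
  · have hm : (1 : ℝ) ≤ m n := B.one_le_m_cast n
    have h0 := nrm_nonneg x
    interval_cases n
    · simp only [Finset.range_zero, Finset.sum_empty]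
      positivity
    · rw [Finset.sum_range_one]
      have h1 := nrm_res_le (hI 0 one_pos) x
      nlinarith
  · exact B.sum_res_le hn le_rfl I hI hlt x

theorem sum_abs_ap_le {N : ℕ} {s : ℕ → Seg} (ok : ∀ r < N, (s r).Ok K)
    (disj : ∀ r < N, ∀ r' < N, r ≠ r' → Disjoint (s r).idx (s r').idx)
    (card : ∀ r < N, ∀ w ∈ (s r).idx, N ≤ w) (x : Vec) :
    ∑ r ∈ range N, |ap (s r).fn x| ≤ nrm x := B.sum_abs_ap_fn_le ok disj card x

theorem abs_apply_le_inv {n : ℕ} {φ : Fn} (h : φ ∈ Wtd K n) (a : W) :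
    |φ a| ≤ ((m n : ℚ))⁻¹ := B.abs_apply_le_of_Wtd h a

end Vale.Agent.P129.H448
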