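import Vale.Agent.P129.H448.Defs

/-! Families of infinite special sequences indexed by `W`, and the kill property. -/

namespace Vale.Agent.P129.H448

/-- A family of infinite special sequences (or nothing), with supports below the index, and
pairwise almost disjoint. -/
structure Family where
  B : W → Option (ℕ → Node)
  inf : ∀ μ Φ, B μ = some Φ → IsInf Φ
  lt : ∀ μ Φ, B μ = some Φ → ∀ k, ∀ a ∈ (Φ k).φ.support, a < μ
  disj : ∀ μ ν Φ Ψ, μ ≠ ν → B μ = some Φ → B ν = some Ψ → AlmostDisj Φ Ψ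

/-- The branch `Φ` is `1` on a sequence of vectors of norm at most `C` in the tails of `h`. -/
def Kills (C : ℝ) (Φ : ℕ → Node) (h : ℕ → Vec) : Prop :=
  ∃ u : ℕ → Vec, ∀ i, u i ∈ Submodule.span ℝ (h '' {k | i ≤ k}) ∧ nrm (u i) ≤ C ∧
    pr (br Φ) (u i) = 1

/-- Every block sequence is killed, arbitrarily late, by a branch of the family. -/
def Family.KillsAll (𝓕 : Family) (C : ℝ) : Prop :=
  ∀ (l : W) (h : ℕ → Vec), IsBlock l h → ∀ a : W, ∃ μ, a ≤ μ ∧ l ≤ μ ∧ ∃ Φ,
    𝓕.B μ = some Φ ∧ Cofinal Φ l ∧ Kills C Φ h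

end Vale.Agent.P129.H448
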