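import Vale.Agent.P129.H448.Space
import Vale.Agent.P129.H448.Family

/-! Infinite special sequences as branches of the frame, and the estimate for tails. -/

open Finset Filter Topology

namespace Vale.Agent.P129.H448

variable {Φ Ψ : ℕ → Node}

theorem IsInf.coded (h : IsInf Φ) (n : ℕ) : H853.Coded F Φ n := (h n).cod

theorem IsInf.bef (h : IsInf Φ) {j k : ℕ} (hjk : j < k) :
    SLt (Φ j).φ.support (Φ k).φ.support := (h.coded (k + 1)).bef hjk (Nat.lt_succ_self k)

theorem IsInf.lt_w (h : IsInf Φ) (k : ℕ) : k < (Φ k).w :=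
  (h.coded (k + 1)).le_w (Nat.lt_succ_self k)

theorem IsInf.w_lt_w (h : IsInf Φ) {j k : ℕ} (hjk : j < k) : (Φ j).w < (Φ k).w :=
  (h.coded (k + 1)).w_lt_w hjk (Nat.lt_succ_self k)

theorem IsInf.wtd (h : IsInf Φ) (k : ℕ) : (Φ k).φ ∈ Wtd K (ell (Φ k).w) :=
  (h (k + 1)).wtd k (Nat.lt_succ_self k)

/-- A coordinate lies in the support of at most one node. -/
theorem IsInf.unique (h : IsInf Φ) {a : W} {j k : ℕ} (hj : (Φ j).φ a ≠ 0)
    (hk : (Φ k).φ a ≠ 0) : j = k := by
  rcases lt_trichotomy j k with h1 | h1 | h1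
  · exact absurd (h.bef h1 a (Finsupp.mem_support_iff.2 hj) a (Finsupp.mem_support_iff.2 hk))
      (lt_irrefl a)
  · exact h1
  · exact absurd (h.bef h1 a (Finsupp.mem_support_iff.2 hk) a (Finsupp.mem_support_iff.2 hj))
      (lt_irrefl a)

/-- All nodes with large numbers vanish on a finite set. -/
theorem IsInf.exists_bound (h : IsInf Φ) (s : Finset W) :
    ∃ N, ∀ k, N ≤ k → ∀ a ∈ s, (Φ k).φ a = 0 := by
  classical
  have h1 : ∀ a : W, ∃ N, ∀ k, N ≤ k → (Φ k).φ a = 0 := by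
    intro a
    by_cases h2 : ∃ j, (Φ j).φ a ≠ 0
    · obtain ⟨j, hj⟩ := h2
      refine ⟨j + 1, fun k hk => ?_⟩
      by_contra h3
      have := h.unique hj h3
      omega
    · push Not at h2
      exact ⟨0, fun k _ => h2 k⟩
  choose N hN using h1
  refine ⟨s.sup N, fun k hk a ha => hN a k ((Finset.le_sup ha).trans hk)⟩

theorem pr_add_fun (g g' : W → ℝ) (x : Vec) : pr (g + g') x = pr g x + pr g' x := by
  simp only [pr_apply, Finsupp.sum, Pi.add_apply, mul_add, Finset.sum_add_distrib]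

theorem pr_congr {g g' : W → ℝ} {x : Vec} (h : ∀ a ∈ x.support, g a = g' a) :
    pr g x = pr g' x := by
  simp only [pr_apply, Finsupp.sum]
  exact Finset.sum_congr rfl fun a ha => by rw [h a ha]

theorem pr_finset_sum {ι : Type} (s : Finset ι) (g : ι → W → ℝ) (x : Vec) :
    pr (fun a => ∑ i ∈ s, g i a) x = ∑ i ∈ s, pr (g i) x := by
  simp only [pr_apply, Finsupp.sum, Finset.mul_sum]
  exact Finset.sum_comm

/-- On a finitely supported vector, the tail is a finite sum of nodes. -/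
theorem IsInf.pr_tl (h : IsInf Φ) {x : Vec} {N : ℕ}
    (hN : ∀ k, N ≤ k → ∀ a ∈ x.support, (Φ k).φ a = 0) (n : ℕ) :
    pr (tl Φ n) x = ∑ k ∈ Ico n N, ap (Φ k).φ x := by
  classical
  have h1 : ∀ a ∈ x.support, tl Φ n a = ∑ k ∈ Ico n N, toR (Φ k).φ a := by
    intro a ha
    rw [tl, finsum_eq_sum_of_support_subset (s := Ico n N)]
    · refine Finset.sum_congr rfl fun k hk => ?_
      rw [if_pos (Finset.mem_Ico.1 hk).1]
      rfl
    · intro k hk
      rw [Function.mem_support] at hk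
      rw [Finset.coe_Ico, Set.mem_Ico]
      by_cases hnk : n ≤ k
      · refine ⟨hnk, ?_⟩
        by_contra h2
        rw [if_pos hnk, hN k (not_lt.1 h2) a ha] at hk
        simp at hk
      · rw [if_neg hnk] at hk
        exact absurd rfl hk
  rw [pr_congr h1, pr_finset_sum]
  rfl

/-- The segment of the nodes with numbers in `[n, N)`. -/
def sg (Φ : ℕ → Node) (n N : ℕ) : Seg := ⟨Φ, N, Set.Ici (Φ n).w, Set.univ⟩

theorem res_univ {R : Type} [Zero R] (x : W →₀ R) : res Set.univ x = x := by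
  classical
  ext a
  rw [res_apply, if_pos (Set.mem_univ a)]

theorem IsInf.nodes_sg (h : IsInf Φ) (n N : ℕ) : (sg Φ n N).nodes = Ico n N := by
  classical
  ext k
  simp only [Seg.nodes, sg, Finset.mem_filter, Finset.mem_range, Set.mem_Ici, Finset.mem_Ico]
  constructor
  · rintro ⟨h1, h2⟩
    refine ⟨?_, h1⟩
    by_contra h3
    exact absurd (h.w_lt_w (not_le.1 h3)) (not_lt.2 h2)
  · rintro ⟨h1, h2⟩
    refine ⟨h2, ?_⟩
    rcases h1.eq_or_lt with rfl | h3
    · exact le_rfl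
    · exact (h.w_lt_w h3).le

theorem ap_sum {ι : Type} (s : Finset ι) (φ : ι → Fn) (x : Vec) :
    ap (∑ i ∈ s, φ i) x = ∑ i ∈ s, ap (φ i) x := by
  simp only [ap]
  rw [← pr_finset_sum]
  congr 2
  funext a
  simp only [toR, Finsupp.finsetSum_apply]
  push_cast
  rfl

theorem IsInf.ap_sg (h : IsInf Φ) (n N : ℕ) (x : Vec) :
    ap (sg Φ n N).fn x = ∑ k ∈ Ico n N, ap (Φ k).φ x := by
  have h1 : (sg Φ n N).fn = ∑ k ∈ Ico n N, (Φ k).φ := by
    rw [Seg.fn, h.nodes_sg]
    exact res_univ _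
  rw [h1, ap_sum]

theorem IsInf.ok_sg (h : IsInf Φ) (n N : ℕ) : (sg Φ n N).Ok K where
  sp := h N
  hJ := Set.ordConnected_Ici
  hI := Set.ordConnected_univ

theorem IsInf.idx_sg (h : IsInf Φ) {n N w : ℕ} (hw : w ∈ (sg Φ n N).idx) :
    ∃ k, n ≤ k ∧ (Φ k).w = w := by
  classical
  rw [Seg.idx, h.nodes_sg, Finset.mem_image] at hw
  obtain ⟨k, hk, rfl⟩ := hw
  exact ⟨k, (Finset.mem_Ico.1 hk).1, rfl⟩

/-- The numbers of the nodes with common weight indices are bounded. -/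
theorem AlmostDisj.exists_bound (h : IsInf Φ) (hd : AlmostDisj Φ Ψ) :
    ∃ K₀, ∀ k, K₀ ≤ k → ∀ j, (Φ k).w ≠ (Ψ j).w := by
  obtain ⟨B, hB⟩ := hd.bddAbove
  refine ⟨B, fun k hk j hj => ?_⟩
  have h1 : (Φ k).w ≤ B := hB ⟨⟨k, rfl⟩, ⟨j, hj.symm⟩⟩
  have := h.lt_w k
  omega

/-- **Tails.** Finitely many pairwise almost disjoint branches: the tails are jointly bounded. -/
theorem exists_tails {N : ℕ} {Φ : ℕ → ℕ → Node} (h : ∀ r < N, IsInf (Φ r))
    (hd : ∀ r < N, ∀ r' < N, r ≠ r' → AlmostDisj (Φ r) (Φ r')) :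
    ∃ K₀, ∀ n, K₀ ≤ n → ∀ x : Vec, ∑ r ∈ range N, |pr (tl (Φ r) n) x| ≤ nrm x := by
  classical
  have h1 : ∀ r r', ∃ K₀, r < N → r' < N → r ≠ r' →
      ∀ k, K₀ ≤ k → ∀ j, (Φ r k).w ≠ (Φ r' j).w := by
    intro r r'
    by_cases hr : r < N ∧ r' < N ∧ r ≠ r'
    · obtain ⟨K₀, hK⟩ := AlmostDisj.exists_bound (h r hr.1) (hd r hr.1 r' hr.2.1 hr.2.2)
      exact ⟨K₀, fun _ _ _ => hK⟩
    · exact ⟨0, fun a b c => absurd ⟨a, b, c⟩ hr⟩
  choose K₁ hK₁ using h1
  refine ⟨max N ((range N).sup fun r => (range N).sup fun r' => K₁ r r'), fun n hn x => ?_⟩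
  have h2 : ∀ r, ∃ M, r < N → ∀ k, M ≤ k → ∀ a ∈ x.support, (Φ r k).φ a = 0 := by
    intro r
    by_cases hr : r < N
    · obtain ⟨M, hM⟩ := (h r hr).exists_bound x.support
      exact ⟨M, fun _ => hM⟩
    · exact ⟨0, fun a => absurd a hr⟩
  choose M hM using h2
  have h3 : ∀ r ∈ range N, |pr (tl (Φ r) n) x| = |ap (sg (Φ r) n (M r)).fn x| := by
    intro r hr
    rw [Finset.mem_range] at hr
    rw [(h r hr).pr_tl (hM r hr), (h r hr).ap_sg]
  rw [Finset.sum_congr rfl h3]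
  refine sum_abs_ap_le (s := fun r => sg (Φ r) n (M r)) (fun r hr => (h r hr).ok_sg _ _)
    (fun r hr r' hr' hrr => ?_) (fun r hr w hw => ?_) x
  · rw [Finset.disjoint_left]
    intro w hw hw'
    obtain ⟨k, hk, hkw⟩ := (h r hr).idx_sg hw
    obtain ⟨j, _, hjw⟩ := (h r' hr').idx_sg hw'
    refine hK₁ r r' hr hr' hrr k ?_ j (hkw.trans hjw.symm)
    refine le_trans ?_ hk
    refine le_trans ?_ ((le_max_right _ _).trans hn)
    refine le_trans ?_ (Finset.le_sup (f := fun r => (range N).sup fun r' => K₁ r r')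
      (Finset.mem_range.2 hr))
    exact Finset.le_sup (f := fun r' => K₁ r r') (Finset.mem_range.2 hr')
  · obtain ⟨k, hk, hkw⟩ := (h r hr).idx_sg hw
    have h4 := (h r hr).lt_w k
    have h5 := (le_max_left N ((range N).sup fun r => (range N).sup fun r' => K₁ r r')).trans hn
    omega

theorem IsInf.abs_pr_tl_le (h : IsInf Φ) (n : ℕ) (x : Vec) : |pr (tl Φ n) x| ≤ nrm x := by
  obtain ⟨N, hN⟩ := h.exists_bound x.support
  rw [h.pr_tl hN, ← h.ap_sg]
  have h1 := sum_abs_ap_le (N := 1) (s := fun _ => sg Φ n N) (fun _ _ => h.ok_sg _ _)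
    (fun r hr r' hr' hrr => by omega) (fun r _ w hw => by
      obtain ⟨k, hk, hkw⟩ := h.idx_sg hw
      have := h.lt_w k
      omega) x
  simpa using h1

/-! ### Growth of the special weights -/

theorem le_ell (k : ℕ) : 2 ^ (1000 + k) ≤ ell k := by
  induction k with
  | zero => rw [ell, Nat.add_zero]
  | succ k ih =>
    rw [ell]
    refine Nat.pow_le_pow_right (by norm_num) ?_
    have : 1000 + k < 2 ^ (1000 + k) := Nat.lt_two_pow_self
    omega

theorem ell_lt_succ (k : ℕ) : ell k < ell (k + 1) := by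
  rw [ell]; exact Nat.lt_two_pow_self

theorem ell_strictMono : StrictMono ell := strictMono_nat_of_lt_succ ell_lt_succ

theorem fw_mono : Monotone fw := fun a b hab => by
  rw [fw, fw]
  have := Nat.log_mono_right (b := 2) hab
  omega

theorem m_mono : Monotone m := fun a b hab => Nat.mul_le_mul_left 64 (fw_mono hab)

theorem m_pos (n : ℕ) : 0 < m n := by rw [m, fw]; omega

theorem m_ell_succ (k : ℕ) : m (ell (k + 1)) = 64 * (1 + ell k) := by
  rw [m, fw, ell, Nat.log_pow (by norm_num)]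

theorem le_m_ell_succ (k : ℕ) : 2 ^ (1000 + k) ≤ m (ell (k + 1)) := by
  rw [m_ell_succ]
  have := le_ell k
  omega

theorem IsInf.inv_m_le (h : IsInf Φ) (k : ℕ) :
    ((m (ell (Φ k).w) : ℝ))⁻¹ ≤ (1 / 2) ^ 1000 * (1 / 2) ^ k := by
  have h1 : 2 ^ (1000 + k) ≤ m (ell (Φ k).w) :=
    (le_m_ell_succ k).trans (m_mono (ell_strictMono.monotone (h.lt_w k)))
  have h2 : (2 : ℝ) ^ (1000 + k) ≤ m (ell (Φ k).w) := by exact_mod_cast h1
  rw [← pow_add, one_div, inv_pow]
  exact inv_anti₀ (by positivity) h2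

/-! ### Branches of the frame -/

theorem IsInf.fnl_tl_inc (h : IsInf Φ) (n : ℕ) (x : Vec) : fnl (tl Φ n) (inc x) = pr (tl Φ n) x :=
  fnl_inc (C := 1) (fun x => by rw [one_mul]; exact h.abs_pr_tl_le n x) x

theorem IsInf.norm_fnl_tl_le (h : IsInf Φ) (n : ℕ) : ‖fnl (tl Φ n)‖ ≤ 1 :=
  norm_fnl_le zero_le_one fun x => by rw [one_mul]; exact h.abs_pr_tl_le n x

theorem IsInf.sum_node (h : IsInf Φ) (n : ℕ) (v : V) :
    ∑ k ∈ range n, ∑ a ∈ (Φ k).φ.support, ((Φ k).φ a : ℝ) * es a v =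
      fnl (tl Φ 0) v - fnl (tl Φ n) v := by
  refine eq_of_inc (f := fun v => ∑ k ∈ range n, ∑ a ∈ (Φ k).φ.support,
    ((Φ k).φ a : ℝ) * es a v) (g := fun v => fnl (tl Φ 0) v - fnl (tl Φ n) v)
    (by fun_prop) (by fun_prop) (fun x => ?_) v
  obtain ⟨N, hN⟩ := h.exists_bound x.support
  have hN' : ∀ k, N + n ≤ k → ∀ a ∈ x.support, (Φ k).φ a = 0 := fun k hk => hN k (by omega)
  rw [h.fnl_tl_inc, h.fnl_tl_inc, h.pr_tl hN', h.pr_tl hN', eq_sub_iff_add_eq,
    ← Finset.sum_Ico_consecutive _ (Nat.zero_le n) (show n ≤ N + n by omega),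
    Finset.range_eq_Ico]
  congr 1
  refine Finset.sum_congr rfl fun k _ => ?_
  rw [ap_eq_sum]
  exact Finset.sum_congr rfl fun a _ => by rw [es_inc]

theorem IsInf.tendsto_tl (h : IsInf Φ) (v : V) :
    Tendsto (fun n => fnl (tl Φ n) v) atTop (𝓝 0) := by
  rw [Metric.tendsto_atTop]
  intro ε hε
  obtain ⟨x, hx⟩ := denseRange_inc.exists_dist_lt v (ε := ε) hε
  rw [dist_eq_norm] at hx
  obtain ⟨N, hN⟩ := h.exists_bound x.support
  refine ⟨N, fun n hn => ?_⟩
  have h1 : fnl (tl Φ n) (inc x) = 0 := by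
    rw [h.fnl_tl_inc, h.pr_tl hN, Finset.Ico_eq_empty (by omega), Finset.sum_empty]
  have h2 := (fnl (tl Φ n)).le_of_opNorm_le (h.norm_fnl_tl_le n) (v - inc x)
  rw [map_sub, h1, sub_zero, one_mul] at h2
  rw [dist_zero_right]
  exact h2.trans_lt hx

/-- An infinite special sequence as a branch of the frame. -/
noncomputable def IsInf.branch (h : IsInf Φ) : H168.Branch frame where
  supp k := (Φ k).φ.support
  coef k a := (Φ k).φ a
  bd k := ((m (ell (Φ k).w) : ℝ))⁻¹
  bd_nonneg k := by positivity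
  bd_summable := Summable.of_nonneg_of_le (fun k => by positivity) h.inv_m_le
    ((summable_geometric_of_lt_one (by norm_num) (by norm_num)).mul_left _)
  coef_le k a _ := by
    have h1 := abs_apply_le_inv (h.wtd k) a
    have h2 : ((|(Φ k).φ a| : ℚ) : ℝ) ≤ (((m (ell (Φ k).w) : ℚ)⁻¹ : ℚ) : ℝ) :=
      Rat.cast_le.2 h1
    rw [Rat.cast_abs, Rat.cast_inv, Rat.cast_natCast] at h2
    exact h2
  lim := fnl (tl Φ 0)
  lim_tendsto v := by
    have h1 := (tendsto_const_nhds (x := fnl (tl Φ 0) v)).sub (h.tendsto_tl v)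
    rw [sub_zero] at h1
    exact h1.congr fun n => (h.sum_node n v).symm

/-- The trivial branch. -/
noncomputable def zeroBranch : H168.Branch frame where
  supp _ := ∅
  coef _ _ := 0
  bd _ := 0
  bd_nonneg _ := le_rfl
  bd_summable := summable_zero
  coef_le _ _ _ := by simp
  lim := 0
  lim_tendsto v := by simp

theorem IsInf.branch_tail (h : IsInf Φ) (n : ℕ) : h.branch.tail n = fnl (tl Φ n) := by
  ext v
  rw [H168.Branch.tail, sub_apply, _root_.sum_apply]
  have h1 := h.sum_node n v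
  have h2 : ∀ k, h.branch.node k v = ∑ a ∈ (Φ k).φ.support, ((Φ k).φ a : ℝ) * es a v := by
    intro k
    rw [H168.Branch.node, _root_.sum_apply]
    rfl
  simp only [h2]
  rw [h1]
  show fnl (tl Φ 0) v - _ = _
  ring

theorem zeroBranch_tail (n : ℕ) : zeroBranch.tail n = 0 := by
  rw [H168.Branch.tail]
  simp [H168.Branch.node, zeroBranch]

open Classical in
/-- the branch of a member of the family -/
noncomputable def Family.br (𝓕 : Family) (μ : W) : H168.Branch frame :=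
  if h : ∃ Φ, 𝓕.B μ = some Φ then (𝓕.inf μ _ h.choose_spec).branch else zeroBranch

theorem Family.br_some (𝓕 : Family) {μ : W} {Φ : ℕ → Node} (h : 𝓕.B μ = some Φ) :
    𝓕.br μ = (𝓕.inf μ Φ h).branch := by
  have h1 : ∃ Φ, 𝓕.B μ = some Φ := ⟨Φ, h⟩
  have h2 : h1.choose = Φ := by
    exact Option.some.inj (h1.choose_spec.symm.trans h)
  rw [Family.br, dif_pos h1]
  congr

theorem Family.br_none (𝓕 : Family) {μ : W} (h : ¬ ∃ Φ, 𝓕.B μ = some Φ) :
    𝓕.br μ = zeroBranch := by rw [Family.br, dif_neg h]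

/-- **The branch system** of a family. -/
noncomputable def Family.system (𝓕 : Family) : H168.BranchSystem frame where
  br := 𝓕.br
  supp_lt μ k a ha := by
    by_cases h : ∃ Φ, 𝓕.B μ = some Φ
    · obtain ⟨Φ, hΦ⟩ := h
      rw [𝓕.br_some hΦ] at ha
      exact 𝓕.lt μ Φ hΦ k a ha
    · rw [𝓕.br_none h] at ha
      exact absurd ha (Finset.notMem_empty a)
  tails A := by
    classical
    set A' := A.filter fun μ => ∃ Φ, 𝓕.B μ = some Φ with hA'
    set N := A'.card with hN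
    set e : Fin N ≃ A' := A'.equivFin.symm with he
    have hex : ∀ μ : A', ∃ Φ, 𝓕.B μ = some Φ := fun μ => (Finset.mem_filter.1 μ.2).2
    choose Q hQ using hex
    set R : ℕ → ℕ → Node := fun r => if h : r < N then Q (e ⟨r, h⟩) else fun _ => ⟨0, 0, 0⟩ with hR
    have hRr : ∀ r (h : r < N), R r = Q (e ⟨r, h⟩) := fun r h => by simp only [hR, dif_pos h]
    obtain ⟨K₀, hK₀⟩ := exists_tails (N := N) (Φ := R)
      (fun r hr => by rw [hRr r hr]; exact 𝓕.inf _ _ (hQ _))
      (fun r hr r' hr' hrr => by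
        rw [hRr r hr, hRr r' hr']
        refine 𝓕.disj _ _ _ _ (fun h => hrr ?_) (hQ _) (hQ _)
        have := e.injective (Subtype.ext h)
        exact congrArg Fin.val this)
    refine ⟨K₀, fun K hK c C hc hC => ?_⟩
    have h0 : ∑ a ∈ A, c a • (𝓕.br a).tail K = ∑ a ∈ A', c a • (𝓕.br a).tail K := by
      rw [hA', Finset.sum_filter_of_ne]
      intro a _ hne
      by_contra h
      rw [𝓕.br_none h, zeroBranch_tail, smul_zero] at hne
      exact hne rfl
    rw [h0]
    refine ContinuousLinearMap.opNorm_le_bound _ hC fun v => ?_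
    refine denseRange_inc.induction_on (p := fun v =>
      ‖(∑ a ∈ A', c a • (𝓕.br a).tail K) v‖ ≤ C * ‖v‖) v ?_ fun x => ?_
    · exact isClosed_le (by fun_prop) (by fun_prop)
    · rw [_root_.sum_apply, norm_inc]
      have h1 : ∀ a : A', ((𝓕.br a).tail K) (inc x) = pr (tl (Q a) K) x := fun a => by
        rw [𝓕.br_some (hQ a), IsInf.branch_tail, (𝓕.inf _ _ (hQ a)).fnl_tl_inc]
      calc ‖∑ a ∈ A', (c a • (𝓕.br a).tail K) (inc x)‖
          ≤ ∑ a ∈ A', ‖(c a • (𝓕.br a).tail K) (inc x)‖ := norm_sum_le _ _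
        _ ≤ ∑ a ∈ A', C * |((𝓕.br a).tail K) (inc x)| := by
            refine Finset.sum_le_sum fun a ha => ?_
            rw [smul_apply, norm_smul, Real.norm_eq_abs, Real.norm_eq_abs]
            exact mul_le_mul_of_nonneg_right (hc a (Finset.mem_filter.1 ha).1) (abs_nonneg _)
        _ = C * ∑ a ∈ A', |((𝓕.br a).tail K) (inc x)| := by rw [Finset.mul_sum]
        _ = C * ∑ r ∈ range N, |pr (tl (R r) K) x| := by
            congr 1
            rw [← Finset.sum_coe_sort A' fun a => |((𝓕.br a).tail K) (inc x)|,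
              ← Equiv.sum_comp e, Finset.sum_range fun r => |pr (tl (R r) K) x|]
            refine Finset.sum_congr rfl fun r _ => ?_
            rw [h1, hRr r r.2]
        _ ≤ C * nrm x := mul_le_mul_of_nonneg_left (hK₀ K hK x) hC

end Vale.Agent.P129.H448
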