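import Vale.Agent.P129.H448.Real
import Vale.Agent.P129.H471.Family
import Vale.Agent.P129.H200.Chain
import Vale.Agent.P129.H560.ZSeqEx

/-! The counterexample, from `non(M) = ℵ₁`. -/

open Cardinal

namespace Vale.Agent.P129.H448

theorem pairSupply {l : W} {h : ℕ → Vec} (hb : IsBlock l h) : H50.PairSupply h 3072 := by
  obtain ⟨z, a, b, hz⟩ := H560.exists_zseq hb
  exact H200.pairSupply hb hz

/-- **Main theorem.** If some set of `ℵ₁` real numbers is not meagre, then there is a Banach space
of density at most `ℵ₁` such that neither it nor its square has a separable infinite-dimensional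
quotient. -/
theorem realCounterexample (hnm : H189.nonMeagre = ℵ_ 1) : H3.RealCounterexample := by
  obtain ⟨𝓕, h𝓕⟩ := H471.exists_family hnm fun _ _ hb => pairSupply hb
  exact realCounterexample_of_family h𝓕

end Vale.Agent.P129.H448
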