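import Vale.Agent.P129.H168.Gen

/-! The generators, with the additional information that `x μ k` lies in the span of the `y ν`
with `ν` below every bound of the support of the node. -/

open Filter Topology

namespace Vale.Agent.P129.H448

open H168

universe u v

variable {ι : Type u} [LinearOrder ι] [WellFoundedLT ι] {V : Type v} [NormedAddCommGroup V]
  [NormedSpace ℝ V]

theorem xRec_mem_lt [CompleteSpace V] {F : Frame ι V} (B : BranchSystem F) (μ : ι) (k : ℕ)
    (l : ι) (hl : ∀ a ∈ (B.br μ).supp k, a < l) :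
    xRec B μ k ∈ Submodule.span ℝ ((fun a => yOf B a (xRec B a)) '' Set.Iio l) := by
  have key : ∃ K, ‖cand B μ (fun ν _ => xRec B ν) k K - (B.br μ).node k‖ ≤
      2 * (B.br μ).bd k := by
    have := approx B (xRec B) ((B.br μ).supp k)
      (fun a _ => (xRec_spec B a).1) ((B.br μ).coef k) ((B.br μ).bd k)
      ((B.br μ).coef_le k) ((B.br μ).bd_nonneg k)
    obtain ⟨K, hK⟩ := this.exists
    exact ⟨K, by rw [cand_eq]; exact hK⟩
  rw [xRec_eq, step, dif_pos key, cand_eq]
  refine Submodule.sum_mem _ fun a ha => Submodule.smul_mem _ _ (Submodule.sub_mem _ ?_ ?_)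
  · exact Submodule.subset_span ⟨a, hl a ha, rfl⟩
  · refine Submodule.sum_mem _ fun j _ => ?_
    refine Submodule.span_mono (Set.image_mono ?_) ((xRec_spec B a).2 j)
    exact Set.Iio_subset_Iio (hl a ha).le

theorem exists_generators [CompleteSpace V] {F : Frame ι V} (B : BranchSystem F) :
    ∃ G : Generators B, ∀ μ k l, (∀ a ∈ (B.br μ).supp k, a < l) →
      G.x μ k ∈ Submodule.span ℝ (G.y '' Set.Iio l) :=
  ⟨{
    y := fun μ => yOf B μ (xRec B μ)
    x := xRec B
    x_mem := fun μ k => (xRec_spec B μ).2 k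
    x_sub_node := fun μ k => (xRec_spec B μ).1 k
    y_eq := fun μ => rfl
    y_self := fun μ => y_self B μ
    y_lt := fun μ ν h => y_lt B μ ν h
    norming := fun v M hM h => norming_aux B v M hM h
    norming_lt := fun a v M hM hP h => norming_lt_aux B a v M hM hP h },
    fun μ k l hl => xRec_mem_lt B μ k l hl⟩

end Vale.Agent.P129.H448
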