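import Vale.Agent.P129.H448.Api
import Vale.Agent.P129.H168.Frame

/-! The Banach space `V`: the completion of `Vec` with the norm `nrm`, as a frame. -/

open Finset Filter Topology

namespace Vale.Agent.P129.H448

/-- `Vec` with the norm `nrm` -/
def E : Type := Vec

noncomputable instance : AddCommGroup E := inferInstanceAs (AddCommGroup Vec)
noncomputable instance : Module ℝ E := inferInstanceAs (Module ℝ Vec)
noncomputable instance : Norm E := ⟨fun x => nrm (x : Vec)⟩

theorem coreE : NormedSpace.Core ℝ E where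
  norm_nonneg x := nrm_nonneg x
  norm_smul c (x : Vec) := nrm_smul c x
  norm_triangle x y := nrm_add_le x y
  norm_eq_zero_iff x := nrm_eq_zero_iff

noncomputable instance : NormedAddCommGroup E := NormedAddCommGroup.ofCore coreE
noncomputable instance : NormedSpace ℝ E := NormedSpace.ofCore coreE

/-- the space `V` -/
abbrev V : Type := UniformSpace.Completion E

/-- the inclusion of the finitely supported vectors -/
noncomputable def inc : Vec →ₗ[ℝ] V :=
  (UniformSpace.Completion.toComplL : E →L[ℝ] V).toLinearMap.comp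
    (LinearMap.id : Vec →ₗ[ℝ] Vec)

theorem norm_inc (x : Vec) : ‖inc x‖ = nrm x :=
  UniformSpace.Completion.norm_coe (E := E) x

theorem denseRange_inc : DenseRange inc :=
  UniformSpace.Completion.denseRange_coe (α := E)

/-! ### Extensions of linear maps and functionals -/

open Classical in
theorem res_apply {R : Type} [Zero R] (I : Set W) (x : W →₀ R) (a : W) :
    res I x a = if a ∈ I then x a else 0 := by
  rw [res, Finsupp.filter_apply]

/-- restriction as a linear map -/
noncomputable def resL (I : Set W) : Vec →ₗ[ℝ] Vec where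
  toFun x := res I x
  map_add' x y := by
    classical
    ext a
    simp only [res_apply, Finsupp.add_apply]
    split_ifs <;> simp
  map_smul' c x := by
    classical
    ext a
    simp only [res_apply, Finsupp.smul_apply, RingHom.id_apply]
    split_ifs <;> simp

theorem resL_apply (I : Set W) (x : Vec) : resL I x = res I x := rfl

/-- the projection on the coordinates in `I` -/
noncomputable def Pr (I : Set W) : V →L[ℝ] V := (inc.comp (resL I)).extendOfNorm inc

theorem Pr_inc {I : Set W} (hI : I.OrdConnected) (x : Vec) : Pr I (inc x) = inc (res I x) := by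
  refine LinearMap.extendOfNorm_eq denseRange_inc ⟨1, fun x => ?_⟩ x
  rw [LinearMap.comp_apply, norm_inc, norm_inc, one_mul, resL_apply]
  exact nrm_res_le hI x

theorem norm_Pr_le {I : Set W} (hI : I.OrdConnected) : ‖Pr I‖ ≤ 1 := by
  refine LinearMap.opNorm_extendOfNorm_le denseRange_inc zero_le_one fun x => ?_
  rw [LinearMap.comp_apply, norm_inc, norm_inc, one_mul, resL_apply]
  exact nrm_res_le hI x

/-- the functional on `V` given by a function `g` on `W` -/
noncomputable def fnl (g : W → ℝ) : StrongDual ℝ V := (pr g).extendOfNorm inc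

theorem fnl_inc {g : W → ℝ} {C : ℝ} (h : ∀ x, |pr g x| ≤ C * nrm x) (x : Vec) :
    fnl g (inc x) = pr g x :=
  LinearMap.extendOfNorm_eq denseRange_inc ⟨C, fun x => by rw [norm_inc]; exact h x⟩ x

theorem norm_fnl_le {g : W → ℝ} {C : ℝ} (hC : 0 ≤ C) (h : ∀ x, |pr g x| ≤ C * nrm x) :
    ‖fnl g‖ ≤ C :=
  LinearMap.opNorm_extendOfNorm_le denseRange_inc hC fun x => by rw [norm_inc]; exact h x

theorem pr_apply (g : W → ℝ) (x : Vec) : pr g x = x.sum fun a r => r * g a := rfl

theorem pr_single (g : W → ℝ) (a : W) (r : ℝ) : pr g (Finsupp.single a r) = r * g a := by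
  rw [pr_apply, Finsupp.sum_single_index (zero_mul _)]

open Classical in
theorem pr_coord (a : W) (x : Vec) : pr (fun b => if b = a then 1 else 0) x = x a := by
  rw [pr_apply, Finsupp.sum]
  simp only [mul_ite, mul_one, mul_zero]
  rw [Finset.sum_ite_eq' x.support a fun b => x b]
  split_ifs with h
  · rfl
  · exact (Finsupp.notMem_support_iff.1 h).symm

theorem pr_sum {s : Finset W} (c : W → ℝ) (g : W → W → ℝ) (x : Vec) :
    pr (fun b => ∑ a ∈ s, c a * g a b) x = ∑ a ∈ s, c a * pr (g a) x := by
  simp only [pr_apply, Finsupp.sum, Finset.mul_sum]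
  rw [Finset.sum_comm]
  refine Finset.sum_congr rfl fun a _ => Finset.sum_congr rfl fun b _ => by ring

/-- the basis vectors -/
noncomputable def eV (a : W) : V := inc (Finsupp.single a 1)

open Classical in
/-- the coordinate functionals -/
noncomputable def es (a : W) : StrongDual ℝ V := fnl fun b => if b = a then 1 else 0

open Classical in
theorem es_inc (a : W) (x : Vec) : es a (inc x) = x a := by
  rw [es, fnl_inc (C := 1), pr_coord]
  intro x
  rw [pr_coord, one_mul]
  exact abs_apply_le_nrm x a

open Classical in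
theorem norm_es_le (a : W) : ‖es a‖ ≤ 1 := by
  refine norm_fnl_le zero_le_one fun x => ?_
  rw [pr_coord, one_mul]
  exact abs_apply_le_nrm x a

/-- continuous maps on `V` which agree on the finitely supported vectors are equal. -/
theorem eq_of_inc {Y : Type*} [TopologicalSpace Y] [T2Space Y] {f g : V → Y}
    (hf : Continuous f) (hg : Continuous g) (h : ∀ x, f (inc x) = g (inc x)) (v : V) :
    f v = g v :=
  congrFun (denseRange_inc.equalizer hf hg (funext h)) v

theorem res_res {R : Type} [Zero R] (I J : Set W) (x : W →₀ R) :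
    res I (res J x) = res (I ∩ J) x := by
  classical
  ext a
  simp only [res_apply, Set.mem_inter_iff]
  split_ifs with h1 h2 h3 h4 <;> simp_all

theorem inc_eq_sum (x : Vec) : inc x = ∑ a ∈ x.support, x a • eV a := by
  have h : x = ∑ a ∈ x.support, x a • Finsupp.single a (1 : ℝ) := by
    conv_lhs => rw [← Finsupp.sum_single x]
    rw [Finsupp.sum]
    refine Finset.sum_congr rfl fun a _ => by rw [Finsupp.smul_single, smul_eq_mul, mul_one]
  conv_lhs => rw [h]
  rw [map_sum]
  refine Finset.sum_congr rfl fun a _ => by rw [map_smul]; rfl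

theorem dense_eV : (Submodule.span ℝ (Set.range eV)).topologicalClosure = ⊤ := by
  rw [← Submodule.dense_iff_topologicalClosure_eq_top]
  refine denseRange_inc.mono ?_
  rintro _ ⟨x, rfl⟩
  rw [SetLike.mem_coe, inc_eq_sum]
  exact Submodule.sum_mem _ fun a _ => Submodule.smul_mem _ _ (Submodule.subset_span ⟨a, rfl⟩)

theorem Pr_sub {a b : W} (hab : a ≤ b) : Pr (Set.Iio b) - Pr (Set.Iio a) = Pr (Set.Ico a b) := by
  classical
  ext v
  refine eq_of_inc (by fun_prop) (by fun_prop) (fun x => ?_) v
  rw [sub_apply, Pr_inc Set.ordConnected_Iio, Pr_inc Set.ordConnected_Iio,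
    Pr_inc Set.ordConnected_Ico, ← map_sub]
  congr 1
  ext c
  simp only [res_apply, Finsupp.sub_apply, Set.mem_Iio, Set.mem_Ico]
  by_cases h1 : c < a
  · simp [h1, h1.trans_le hab, not_le.2 h1]
  · simp only [h1, if_false, not_lt.1 h1, true_and, sub_zero]

theorem sub_Pr (a : W) (v : V) : v - Pr (Set.Iio a) v = Pr (Set.Ici a) v := by
  classical
  refine eq_of_inc (f := fun v => v - Pr (Set.Iio a) v) (g := fun v => Pr (Set.Ici a) v)
    (by fun_prop) (by fun_prop) (fun x => ?_) v
  rw [Pr_inc Set.ordConnected_Iio, Pr_inc Set.ordConnected_Ici, ← map_sub]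
  congr 1
  ext c
  simp only [res_apply, Finsupp.sub_apply, Set.mem_Iio, Set.mem_Ici]
  by_cases h1 : c < a
  · simp [h1, not_le.2 h1]
  · simp only [h1, if_false, not_lt.1 h1, if_true, sub_zero]

theorem norm_Pr_apply_le {I : Set W} (hI : I.OrdConnected) (v : V) : ‖Pr I v‖ ≤ ‖v‖ := by
  have := (Pr I).le_of_opNorm_le (norm_Pr_le hI) v
  rwa [one_mul] at this

theorem sum_norm_Pr_le {a : ℕ → W} (ha : Monotone a) (n : ℕ) (v : V) :
    ∑ i ∈ range n, ‖Pr (Set.Iio (a (i + 1))) v - Pr (Set.Iio (a i)) v‖ ≤ m n * ‖v‖ := by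
  refine denseRange_inc.induction_on (p := fun v => ∑ i ∈ range n,
    ‖Pr (Set.Iio (a (i + 1))) v - Pr (Set.Iio (a i)) v‖ ≤ m n * ‖v‖) v ?_ fun x => ?_
  · exact isClosed_le (by fun_prop) (by fun_prop)
  · have h : ∀ i ∈ range n, ‖Pr (Set.Iio (a (i + 1))) (inc x) - Pr (Set.Iio (a i)) (inc x)‖ =
        nrm (res (Set.Ico (a i) (a (i + 1))) x) := by
      intro i _
      rw [← sub_apply, Pr_sub (ha (Nat.le_succ i)),
        Pr_inc Set.ordConnected_Ico, norm_inc]
    rw [Finset.sum_congr rfl h, norm_inc]
    refine sum_nrm_res_le _ (fun i _ => Set.ordConnected_Ico) (fun i j hij _ => ?_) x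
    intro c hc d hd
    exact hc.2.trans_le ((ha hij).trans hd.1)

theorem ap_eq_sum (φ : Fn) (x : Vec) : ap φ x = ∑ a ∈ φ.support, (φ a : ℝ) * x a := by
  rw [ap, pr_apply, Finsupp.sum]
  have h1 : ∑ a ∈ x.support, x a * toR φ a = ∑ a ∈ x.support ∪ φ.support, x a * toR φ a := by
    refine Finset.sum_subset subset_union_left fun a _ ha => ?_
    rw [Finsupp.notMem_support_iff.1 ha, zero_mul]
  have h2 : ∑ a ∈ φ.support, (φ a : ℝ) * x a =
      ∑ a ∈ x.support ∪ φ.support, (φ a : ℝ) * x a := by
    refine Finset.sum_subset subset_union_right fun a _ ha => ?_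
    rw [Finsupp.notMem_support_iff.1 ha, Rat.cast_zero, zero_mul]
  rw [h1, h2]
  exact Finset.sum_congr rfl fun a _ => mul_comm _ _

/-- the functional on `V` given by an element of the norming set -/
theorem sum_es_inc (φ : Fn) (x : Vec) :
    (∑ a ∈ φ.support, (φ a : ℝ) • es a) (inc x) = ap φ x := by
  rw [_root_.sum_apply, ap_eq_sum]
  refine Finset.sum_congr rfl fun a _ => ?_
  rw [smul_apply, es_inc, smul_eq_mul]

theorem norm_sum_es_le {φ : Fn} (hφ : φ ∈ K) : ‖∑ a ∈ φ.support, (φ a : ℝ) • es a‖ ≤ 1 := by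
  refine ContinuousLinearMap.opNorm_le_bound _ zero_le_one fun v => ?_
  refine denseRange_inc.induction_on (p := fun v => ‖(∑ a ∈ φ.support, (φ a : ℝ) • es a) v‖ ≤
    1 * ‖v‖) v ?_ fun x => ?_
  · exact isClosed_le (by fun_prop) (by fun_prop)
  · rw [sum_es_inc, norm_inc, one_mul]
    exact abs_ap_le_nrm hφ x

theorem m_small : Tendsto (fun n : ℕ => (m n : ℝ) / n) atTop (𝓝 0) := by
  have h1 : Tendsto (fun n : ℕ => 64 * (((1 : ℝ) + Real.log n / Real.log 2) / n)) atTop (𝓝 0) := by
    have h2 : Tendsto (fun x : ℝ => Real.log x / x) atTop (𝓝 0) := by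
      have := Real.isLittleO_log_id_atTop
      exact this.tendsto_div_nhds_zero
    have h3 : Tendsto (fun n : ℕ => Real.log (n : ℝ) / n) atTop (𝓝 0) :=
      h2.comp tendsto_natCast_atTop_atTop
    have h4 : Tendsto (fun n : ℕ => (1 : ℝ) / n) atTop (𝓝 0) := tendsto_one_div_atTop_nhds_zero_nat
    have h5 := (h4.add (h3.div_const (Real.log 2))).const_mul 64
    simp only [zero_div, add_zero, mul_zero] at h5
    refine h5.congr fun n => ?_
    by_cases hn : (n : ℝ) = 0
    · simp [hn]
    · field_simp
  refine squeeze_zero (fun n => by positivity) (fun n => ?_) h1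
  rw [mul_div_assoc']
  gcongr
  rcases Nat.eq_zero_or_pos n with rfl | hn
  · simp [m, fw]
  · have h6 : (Nat.log 2 n : ℝ) ≤ Real.log n / Real.log 2 := by
      have := Real.natLog_le_logb n 2
      rwa [Real.logb] at this
    rw [m, fw]
    push_cast
    linarith

/-- **The frame**: the Banach space `V` with its transfinite basis. -/
noncomputable def frame : H168.Frame W V where
  e := eV
  es := es
  P a := Pr (Set.Iio a)
  norm_e_le a := by rw [eV, norm_inc, nrm_single]
  norm_es_le := norm_es_le
  es_e a b := by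
    classical
    rw [eV, es_inc, Finsupp.single_apply]
    simp only [eq_comm]
  dense := dense_eV
  P_e a b := by
    classical
    rw [eV, Pr_inc Set.ordConnected_Iio]
    split_ifs with h
    · congr 1
      ext c
      rw [res_apply, Finsupp.single_apply]
      split_ifs with h1 h2 h2
      · rfl
      · rfl
      · subst h2; exact absurd h h1
      · rfl
    · rw [← map_zero inc]
      congr 1
      ext c
      rw [res_apply, Finsupp.single_apply]
      split_ifs with h1 h2
      · subst h2; exact absurd h1 h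
      · rfl
      · rfl
  norm_P_le a := norm_Pr_le Set.ordConnected_Iio
  norm_P_sub_le a b hab := by rw [Pr_sub hab]; exact norm_Pr_le Set.ordConnected_Ico
  norm_sub_P_le a v := by rw [sub_Pr]; exact norm_Pr_apply_le Set.ordConnected_Ici v
  m n := m n
  m_small := m_small
  sum_le a ha n v := sum_norm_Pr_le ha n v
  norming v ε hε := by
    obtain ⟨x, hx⟩ := denseRange_inc.exists_dist_lt v (ε := ε / 3) (by positivity)
    rw [dist_eq_norm] at hx
    obtain ⟨φ, hφ, -, h1⟩ := exists_ap (x := x) (c := nrm x - ε / 3) (by linarith)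
    refine ⟨φ.support, fun a => φ a, fun a _ => ?_, norm_sum_es_le hφ, ?_⟩
    · have := abs_apply_le_one hφ a
      have h6 : |((φ a : ℚ) : ℝ)| ≤ 1 := by exact_mod_cast this
      exact h6
    · have h2 := (∑ a ∈ φ.support, (φ a : ℝ) • es a).le_of_opNorm_le (norm_sum_es_le hφ)
        (v - inc x)
      rw [map_sub, sum_es_inc, one_mul] at h2
      have h3 : (∑ a ∈ φ.support, (φ a : ℝ) • es a) v = ∑ a ∈ φ.support, (φ a : ℝ) * es a v := by
        rw [_root_.sum_apply]
        rfl
      rw [← h3]
      have h4 := (abs_le.1 h2).1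
      have h5 : ‖v‖ ≤ ‖v - inc x‖ + ‖inc x‖ := by
        have := norm_add_le (v - inc x) (inc x)
        rwa [sub_add_cancel] at this
      rw [norm_inc] at h5
      linarith

end Vale.Agent.P129.H448
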