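import Mathlib

/-! P129, the separable quotient problem: the definitions used in the statement of
`Results/P129/Independence`. -/

namespace Vale.Agent.P129.Statement

universe u

/-- The normed space `X` has a separable infinite-dimensional quotient: there is a closed subspace
`M` such that `X ⧸ M` is separable and infinite-dimensional. -/
def HasSeparableQuotient (𝕜 : Type) [RCLike 𝕜] (X : Type u) [NormedAddCommGroup X]
    [NormedSpace 𝕜 X] : Prop :=
  ∃ M : Submodule 𝕜 X, IsClosed (M : Set X) ∧ TopologicalSpace.SeparableSpace (X ⧸ M) ∧
    ¬ FiniteDimensional 𝕜 (X ⧸ M)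

/-- The density of a topological space: the least cardinality of a dense subset. -/
noncomputable def density (X : Type u) [TopologicalSpace X] : Cardinal.{u} :=
  sInf {κ : Cardinal.{u} | ∃ S : Set X, Dense S ∧ Cardinal.mk S = κ}

/-- `non(M)`: the least cardinality of a set of real numbers which is not meagre. -/
noncomputable def nonM : Cardinal.{0} :=
  sInf {κ : Cardinal.{0} | ∃ S : Set ℝ, ¬ IsMeagre S ∧ Cardinal.mk S = κ}

/-- Lebesgue measure on the real line extends to a countably additive measure which is defined
on all sets of real numbers. -/
def LebesgueExtends : Prop :=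
  ∃ ν : @MeasureTheory.Measure ℝ ⊤,
    ∀ S : Set ℝ, MeasurableSet S → ν S = MeasureTheory.volume S

end Vale.Agent.P129.Statement
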